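import Vale.Agent.Lib.P237.ConeVolume

/-!
# P237: Petty's conjectured projection inequality for cones in three-space

Three-space is `Fin 3 → ℝ` with the dot product `⬝ᵥ` and Lebesgue measure `volume`.  The
projection body `projBody K` is defined in `Lib/P237/Defs.lean`: it is the set of all `x`
with `x ⬝ᵥ u` at most the area of the orthogonal projection of `K` onto the plane orthogonal
to `u`, for every unit vector `u`.

First part: if a convex set `K` contains a planar compact convex set `A`, placed in the plane
`x 2 = 0`, and a point `a`, then `volume (projBody K) ≥ (a 2) ^ 2 * (area A) ^ 2`.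

Second part: let `K` be the cone with base `A` and apex `a`, `a 2 > 0`, that is the convex
hull of `a` and of the copy of `A` in the plane `x 2 = 0`.  In dimension `3` Petty's
conjecture reads `volume (projBody K) ≥ (3 π ^ 2 / 4) * volume K ^ 2`.  The theorem proves the
stronger bound with the constant `9` for every such cone, hence Petty's inequality, and the
strict inequality when the cone has positive volume.

The proof of the first part shows that for `p`, `q` in `A` the projection body contains the
vertical segment of length `area A` over the point `(a 2 / 2)` times a quarter-turn of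
`p - q`: its end points are the vector area of the triangle `a`, `p`, `q` plus or minus the
vertical vector whose length is the area of the part of `A` on one side of the line `p q`.
The Brunn-Minkowski inequality in the plane (`Lib/P243/BM2.lean`) gives
`area (A - A) ≥ 4 area A`.  The second part uses `volume K ≤ (a 2 / 3) * area A`.
-/

namespace Vale.Agent.Results.P237.Cones

open MeasureTheory Vale.Agent.Lib.P237

theorem result :
    (∀ (K : Set (Fin 3 → ℝ)) (A : Set (ℝ × ℝ)) (a : Fin 3 → ℝ), Convex ℝ K → Convex ℝ A →
      IsCompact A → (∀ x ∈ A, (![x.1, x.2, 0] : Fin 3 → ℝ) ∈ K) → a ∈ K →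
      ENNReal.ofReal (a 2 ^ 2) * volume A ^ 2 ≤ volume (projBody K)) ∧
    (∀ (A : Set (ℝ × ℝ)) (a : Fin 3 → ℝ) (K : Set (Fin 3 → ℝ)), Convex ℝ A → IsCompact A →
      0 < a 2 →
      K = convexHull ℝ (insert a ((fun x : ℝ × ℝ => (![x.1, x.2, 0] : Fin 3 → ℝ)) '' A)) →
      9 * volume K ^ 2 ≤ volume (projBody K) ∧
      ENNReal.ofReal (3 * Real.pi ^ 2 / 4) * volume K ^ 2 ≤ volume (projBody K) ∧
      (0 < volume K →
        ENNReal.ofReal (3 * Real.pi ^ 2 / 4) * volume K ^ 2 < volume (projBody K))) := by
  refine ⟨fun K A a hK hA hAc hbase ha => petty_wedge hK hA hAc hbase ha, ?_⟩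
  intro A a K hA hAc ha hK
  have hK' : K = coneOver A a := hK
  obtain ⟨hvolK, hmain'⟩ := petty_cone hA hAc ha
  have hmain : 9 * volume K ^ 2 ≤ volume (projBody K) := by
    rw [hK']
    exact hmain'
  have hpi : ENNReal.ofReal (3 * Real.pi ^ 2 / 4) < 9 := by
    have h1 : 3 * Real.pi ^ 2 / 4 < 9 := by
      have := Real.pi_lt_d2
      have := Real.pi_pos
      nlinarith
    have e9 : (9 : ENNReal) = ENNReal.ofReal 9 := by norm_num
    rw [e9]
    exact (ENNReal.ofReal_lt_ofReal_iff (by norm_num)).mpr h1
  refine ⟨hmain, le_trans (mul_le_mul_left hpi.le _) hmain, fun hpos => ?_⟩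
  refine lt_of_lt_of_le ?_ hmain
  have hK0 : volume K ^ 2 ≠ 0 := pow_ne_zero _ hpos.ne'
  have hKt : volume K ^ 2 ≠ ⊤ := by
    refine ENNReal.pow_ne_top (ne_top_of_le_ne_top ?_ (hK' ▸ hvolK))
    exact ENNReal.mul_ne_top ENNReal.ofReal_ne_top hAc.measure_lt_top.ne
  have := ENNReal.mul_lt_mul_right hK0 hKt hpi
  rwa [mul_comm (volume K ^ 2), mul_comm (volume K ^ 2)] at this

end Vale.Agent.Results.P237.Cones
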