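import Vale.Agent.Lib.P237.Cylinder

/-!
# P237: Petty's conjectured projection inequality for right cylinders in three-space

Three-space is `Fin 3 → ℝ` with the dot product `⬝ᵥ` and Lebesgue measure `volume`.  The
projection body `projBody K` is defined in `Lib/P237/Defs.lean`: it is the set of all `x`
with `x ⬝ᵥ u` at most the area of the orthogonal projection of `K` onto the plane orthogonal
to `u`, for every unit vector `u`.

Let `A` be a compact convex set in the plane `ℝ × ℝ`, let `h > 0`, and let `K` be the right
cylinder over `A` of height `h`, that is, the set of all points `p` with `(p 0, p 1)` in `A`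
and `0 ≤ p 2 ≤ h`.  In dimension `3` Petty's conjecture reads
`volume (projBody K) ≥ (3 π ^ 2 / 4) * volume K ^ 2`, the constant being
`κ₂ ^ 3 / κ₃ = π ^ 3 / (4 π / 3)`.  The theorem proves the stronger bound with the constant
`8` for every such cylinder, hence Petty's inequality, and the strict inequality when `A` has
interior points (so no such cylinder is an equality case).

The proof shows that `projBody K` contains the product of `h` times a quarter-turn of the
difference body `A - A` with the segment of half-length `area A` on the third axis, and uses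
the Brunn-Minkowski inequality in the plane (`Lib/P243/BM2.lean`) for `area (A - A) ≥ 4 area A`.
-/

namespace Vale.Agent.Results.P237.Cylinders

open MeasureTheory Vale.Agent.Lib.P237

theorem result (A : Set (ℝ × ℝ)) (hA : Convex ℝ A) (hAc : IsCompact A) (h : ℝ) (hh : 0 < h)
    (K : Set (Fin 3 → ℝ)) (hK : K = {p | (p 0, p 1) ∈ A ∧ 0 ≤ p 2 ∧ p 2 ≤ h}) :
    8 * volume K ^ 2 ≤ volume (projBody K) ∧
      ENNReal.ofReal (3 * Real.pi ^ 2 / 4) * volume K ^ 2 ≤ volume (projBody K) ∧
      ((interior A).Nonempty →
        ENNReal.ofReal (3 * Real.pi ^ 2 / 4) * volume K ^ 2 < volume (projBody K)) := by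
  have hK' : K = {p : Fin 3 → ℝ | (p 0, p 1) ∈ A ∧ p 2 ∈ Set.Icc (0 : ℝ) h} := hK
  have hmain : 8 * volume K ^ 2 ≤ volume (projBody K) := by
    rw [hK']
    exact petty_cylinder hA hAc hh
  have hpi : ENNReal.ofReal (3 * Real.pi ^ 2 / 4) < 8 := by
    have h1 : 3 * Real.pi ^ 2 / 4 < 8 := by
      have := Real.pi_lt_d2
      have := Real.pi_pos
      nlinarith
    have e8 : (8 : ENNReal) = ENNReal.ofReal 8 := by norm_num
    rw [e8]
    exact (ENNReal.ofReal_lt_ofReal_iff (by norm_num)).mpr h1
  refine ⟨hmain, le_trans (mul_le_mul_left hpi.le _) hmain, fun hint => ?_⟩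
  refine lt_of_lt_of_le ?_ hmain
  have hvol : volume K = volume A * ENNReal.ofReal h := by
    rw [hK', volume_cyl, Real.volume_Icc, sub_zero]
  have hApos : 0 < volume A :=
    lt_of_lt_of_le (isOpen_interior.measure_pos volume hint) (measure_mono interior_subset)
  have hK0 : volume K ^ 2 ≠ 0 := by
    rw [hvol]
    exact pow_ne_zero _ (mul_ne_zero hApos.ne' (by simpa using hh))
  have hKt : volume K ^ 2 ≠ ⊤ := by
    rw [hvol]
    exact ENNReal.pow_ne_top (ENNReal.mul_ne_top hAc.measure_lt_top.ne ENNReal.ofReal_ne_top)
  have := ENNReal.mul_lt_mul_right hK0 hKt hpi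
  rwa [mul_comm (volume K ^ 2), mul_comm (volume K ^ 2)] at this

end Vale.Agent.Results.P237.Cylinders
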