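import Vale.Agent.Lib.P237.Frustum

/-!
# P237: a projection inequality from two parallel sections, and Petty's conjectured
inequality for frusta in three-space

Three-space is `Fin 3 → ℝ` with the dot product `⬝ᵥ` and Lebesgue measure `volume`.  The
projection body `projBody K` is defined in `Lib/P237/Defs.lean`: it is the set of all `x`
with `x ⬝ᵥ u` at most the area of the orthogonal projection of `K` onto the plane orthogonal
to `u`, for every unit vector `u`.

First part: if a convex set `K` contains a planar compact convex set `A`, placed in the plane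
`x 2 = 0`, and a planar compact convex set `B`, placed in the plane `x 2 = h`, then
`volume (projBody K) ≥ h ^ 2 * (area A + area B) * area (A + B)`, where `A + B` is the
Minkowski sum.

Second part: let `K` be the frustum with bottom base `A` in the plane `x 2 = 0` and top base
the homothetic copy `r • A + c` (`r ≥ 0`, `c` any vector of the plane) in the plane
`x 2 = h`, `h > 0`: the convex hull of the two bases.  For `r = 1` this is a cylinder (right
or oblique), for `r = 0` a cone.  In dimension `3` Petty's conjecture reads
`volume (projBody K) ≥ (3 π ^ 2 / 4) * volume K ^ 2`.  The theorem proves the stronger bound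
with the constant `8` for every such frustum, hence Petty's inequality, and the strict
inequality when the frustum has positive volume.

Proof of the first part.  For a unit vector `u` with `u 2 ≠ 0` the area of the projection of
`K` along `u` is at least `|u 2|` times `F w`, the area of the convex hull of `A` and of the
translate `B + w`, `w = -(h / u 2) (u 0, u 1)`.  The planar shift inequality
(`Lib/P237/Shift.lean`, proved by slicing along the direction `w' - w`) says
`F w + F w' ≥ area A + area B + (1 / 2) |(w' - w) × (m - m')|` for `m`, `m'` in `A + B`.  So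
over the point `h` times a quarter-turn of `(m - m') / 2` the projection body contains a
vertical segment of length `area A + area B`, and the Brunn-Minkowski inequality in the plane
(`Lib/P243/BM2.lean`) gives that the set of these points has area at least
`h ^ 2 * area (A + B)`.  The second part uses `volume K ≤ h (1 + r + r ^ 2) / 3 * area A` and
`9 (1 + r ^ 2) (1 + r) ^ 2 - 8 (1 + r + r ^ 2) ^ 2 = (1 - r) ^ 2 (1 + 4 r + r ^ 2)`.
-/

namespace Vale.Agent.Results.P237.Frusta

open MeasureTheory Vale.Agent.Lib.P237
open scoped Pointwise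

theorem result :
    (∀ (K : Set (Fin 3 → ℝ)) (A B : Set (ℝ × ℝ)) (h : ℝ), Convex ℝ K → Convex ℝ A →
      IsCompact A → Convex ℝ B → IsCompact B →
      (∀ x ∈ A, (![x.1, x.2, 0] : Fin 3 → ℝ) ∈ K) →
      (∀ x ∈ B, (![x.1, x.2, h] : Fin 3 → ℝ) ∈ K) →
      ENNReal.ofReal (h ^ 2) * (volume A + volume B) * volume (A + B) ≤ volume (projBody K)) ∧
    (∀ (A : Set (ℝ × ℝ)) (r h : ℝ) (c : ℝ × ℝ) (K : Set (Fin 3 → ℝ)), Convex ℝ A →
      IsCompact A → 0 ≤ r → 0 < h →
      K = convexHull ℝ ((fun x : ℝ × ℝ => (![x.1, x.2, 0] : Fin 3 → ℝ)) '' A ∪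
        (fun x : ℝ × ℝ => (![r * x.1 + c.1, r * x.2 + c.2, h] : Fin 3 → ℝ)) '' A) →
      8 * volume K ^ 2 ≤ volume (projBody K) ∧
      ENNReal.ofReal (3 * Real.pi ^ 2 / 4) * volume K ^ 2 ≤ volume (projBody K) ∧
      (0 < volume K →
        ENNReal.ofReal (3 * Real.pi ^ 2 / 4) * volume K ^ 2 < volume (projBody K))) := by
  refine ⟨fun K A B h hK hA hAc hB hBc hbase htop =>
    petty_two_sections hK hA hAc hB hBc hbase htop, ?_⟩
  intro A r h c K hA hAc hr hh hK
  have hK' : K = frustumOver A r h c := hK
  obtain ⟨hvolK, hmain'⟩ := petty_frustum hA hAc hr hh c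
  have hmain : 8 * volume K ^ 2 ≤ volume (projBody K) := by
    rw [hK']
    exact hmain'
  have hpi : ENNReal.ofReal (3 * Real.pi ^ 2 / 4) < 8 := by
    have h1 : 3 * Real.pi ^ 2 / 4 < 8 := by
      have := Real.pi_lt_d2
      have := Real.pi_pos
      nlinarith
    have e8 : (8 : ENNReal) = ENNReal.ofReal 8 := by norm_num
    rw [e8]
    exact (ENNReal.ofReal_lt_ofReal_iff (by norm_num)).mpr h1
  refine ⟨hmain, le_trans (mul_le_mul_left hpi.le _) hmain, fun hpos => ?_⟩
  refine lt_of_lt_of_le ?_ hmain
  have hK0 : volume K ^ 2 ≠ 0 := pow_ne_zero _ hpos.ne'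
  have hKt : volume K ^ 2 ≠ ⊤ := by
    refine ENNReal.pow_ne_top (ne_top_of_le_ne_top ?_ (hK' ▸ hvolK))
    exact ENNReal.mul_ne_top ENNReal.ofReal_ne_top hAc.measure_lt_top.ne
  have := ENNReal.mul_lt_mul_right hK0 hKt hpi
  rwa [mul_comm (volume K ^ 2), mul_comm (volume K ^ 2)] at this

end Vale.Agent.Results.P237.Frusta
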