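import Vale.Agent.Lib.P237.TwoHull

/-!
# P237: Petty's conjectured inequality for convex hulls of two convex sets in parallel planes

Three-space is `Fin 3 → ℝ` with the dot product `⬝ᵥ` and Lebesgue measure `volume`.  The
projection body `projBody K` is defined in `Lib/P237/Defs.lean`: it is the set of all `x`
with `x ⬝ᵥ u` at most the area of the orthogonal projection of `K` onto the plane orthogonal
to `u`, for every unit vector `u`.

Let `A` and `B` be arbitrary compact convex sets of the plane (they may be degenerate:
segments or points), `h > 0`, and let `K` be the convex hull of `A`, placed in the plane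
`x 2 = 0`, and `B`, placed in the plane `x 2 = h`.  This class contains all prismatoids with
two parallel bases (prisms, antiprisms, pyramids, frusta, wedges, tetrahedra as hulls of two
segments), cylinders and cones over arbitrary convex bases, and all their non-polytopal
analogues.  In dimension `3` Petty's conjecture reads
`volume (projBody K) ≥ (3 π ^ 2 / 4) * volume K ^ 2`.  The theorem proves the stronger bound
with the constant `8` for every such `K`, hence Petty's inequality, with strict inequality
when `K` has positive volume; it also records the volume bound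
`volume K ≤ (h / 6) (area A + area B + area (A + B))` used in the proof (`A + B` is the
Minkowski sum).

Proof.  Write `s = area A + area B`, `m = area (A + B)`.

1. (`Lib/P237/Transport.lean`, `Boundary.lean`, `Steiner.lean`.)  The Steiner polynomial:
   `area (l X + m Y) = l ^ 2 area X + m ^ 2 area Y + l m (area (X + Y) - area X - area Y)` for
   planar compact convex `X`, `Y`.  It is proved by transporting the right and left boundary
   functions along the monotone curve of optimal decompositions of the boundary points of
   `X + Y` (an exchange argument gives monotonicity; Stieltjes measures give the change of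
   variables).  Consequences: the slice of `K` at height `t h` has area at most
   `(1 - t) ^ 2 area A + t ^ 2 area B + t (1 - t) (m - s)`, so `volume K ≤ (h / 6) (s + m)`;
   the mixed term `m - s` is monotone in each set, hence at most twice the area of the convex
   hull of `A` and any translate of `B`.
2. (`Lib/P237/TwoBase.lean`.)  Over `h` times a quarter-turn of each half difference of two
   points of `A + B` the projection body contains a vertical segment of length `s`; these
   points form a set of area at least `h ^ 2 m` (Brunn-Minkowski).  So
   `volume (projBody K) ≥ h ^ 2 s m`, which gives the claim when `m ≤ 2 s`.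
3. (`Lib/P237/TwoHull.lean`.)  Over the origin the projection body contains the vertical
   segment of half-length `(m - s) / 2`, by step 1.  By convexity it contains a capped cone,
   and `volume (projBody K) ≥ h ^ 2 m (s + m) / 3`, which gives the claim when `m ≥ 2 s`.
-/

namespace Vale.Agent.Results.P237.TwoBases

open MeasureTheory Vale.Agent.Lib.P237
open scoped Pointwise

theorem result :
    ∀ (A B : Set (ℝ × ℝ)) (h : ℝ) (K : Set (Fin 3 → ℝ)), Convex ℝ A → IsCompact A →
      Convex ℝ B → IsCompact B → 0 < h →
      K = convexHull ℝ ((fun x : ℝ × ℝ => (![x.1, x.2, 0] : Fin 3 → ℝ)) '' A ∪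
        (fun x : ℝ × ℝ => (![x.1, x.2, h] : Fin 3 → ℝ)) '' B) →
      volume K ≤ ENNReal.ofReal (h / 6) * (volume A + volume B + volume (A + B)) ∧
      8 * volume K ^ 2 ≤ volume (projBody K) ∧
      ENNReal.ofReal (3 * Real.pi ^ 2 / 4) * volume K ^ 2 ≤ volume (projBody K) ∧
      (0 < volume K →
        ENNReal.ofReal (3 * Real.pi ^ 2 / 4) * volume K ^ 2 < volume (projBody K)) := by
  intro A B h K hA hAc hB hBc hh hK
  have hK' : K = twoHull A B h := hK
  obtain ⟨hvolK', hmain'⟩ := petty_twoHull hA hAc hB hBc hh
  have hvolK : volume K ≤ ENNReal.ofReal (h / 6) * (volume A + volume B + volume (A + B)) := by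
    rw [hK']
    exact hvolK'
  have hmain : 8 * volume K ^ 2 ≤ volume (projBody K) := by
    rw [hK']
    exact hmain'
  have hpi : ENNReal.ofReal (3 * Real.pi ^ 2 / 4) < 8 := by
    have h1 : 3 * Real.pi ^ 2 / 4 < 8 := by
      have := Real.pi_lt_d2
      have := Real.pi_pos
      nlinarith
    have e8 : (8 : ENNReal) = ENNReal.ofReal 8 := by norm_num
    rw [e8]
    exact (ENNReal.ofReal_lt_ofReal_iff (by norm_num)).mpr h1
  refine ⟨hvolK, hmain, le_trans (mul_le_mul_left hpi.le _) hmain, fun hpos => ?_⟩
  refine lt_of_lt_of_le ?_ hmain
  have hK0 : volume K ^ 2 ≠ 0 := pow_ne_zero _ hpos.ne'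
  have hKt : volume K ^ 2 ≠ ⊤ := by
    refine ENNReal.pow_ne_top (ne_top_of_le_ne_top ?_ hvolK)
    exact ENNReal.mul_ne_top ENNReal.ofReal_ne_top
      (ENNReal.add_ne_top.mpr ⟨ENNReal.add_ne_top.mpr
        ⟨hAc.measure_lt_top.ne, hBc.measure_lt_top.ne⟩, (hAc.add hBc).measure_lt_top.ne⟩)
  have := ENNReal.mul_lt_mul_right hK0 hKt hpi
  rwa [mul_comm (volume K ^ 2), mul_comm (volume K ^ 2)] at this

end Vale.Agent.Results.P237.TwoBases
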